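import Vale.Agent.P126.Cubes

namespace Vale.Agent.Results.P126.ScaleNecessary

open Vale.Agent.P126
open scoped Pointwise

theorem log_covNum_le {n : ℕ} {A B : Set (E n)} {m : ℕ} (h : covNum A B ≤ m) (hm : 1 ≤ m) :
    Real.log (covNum A B) ≤ Real.log m := by
  rcases Nat.eq_zero_or_pos (covNum A B) with h0 | h0
  · rw [h0]
    simp only [Nat.cast_zero, Real.log_zero]
    exact Real.log_nonneg (by exact_mod_cast hm)
  · exact Real.log_le_log (by exact_mod_cast h0) (by exact_mod_cast h)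

theorem le_log_covNum {n : ℕ} {A B : Set (E n)} {m : ℕ} (h : m ≤ covNum A B) (hm : 1 ≤ m) :
    Real.log m ≤ Real.log (covNum A B) :=
  Real.log_le_log (by exact_mod_cast hm) (by exact_mod_cast h)

theorem two_pow_le_covNum_cube (n : ℕ) {s t : ℝ} (hs : 0 < s) (hst : s < t) :
    2 ^ n ≤ covNum (cube n t) (cube n s) :=
  le_covNum (exists_cover (isCompact_cube n t) (isSymmBody_cube n hs).2.2.1)
    (fun c hc => card_ge_of_cover_cube n (hs.le.trans hst.le) hst c hc)

theorem covNum_cross_le (n : ℕ) (hn : 1 ≤ n) {s t : ℝ} (hs : 0 < s) (hst : s ≤ t)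
    (ht : t ≤ s * (1 + 1 / n)) : covNum (cross n t) (cross n s) ≤ 2 * n + 1 := by
  obtain ⟨c, hc, hcov⟩ := exists_cover_cross n hn hs hst ht
  exact (covNum_le hcov).trans hc

theorem tradeoff_left {a b : ℝ} (ha : 1 ≤ a) (hb : 1 ≤ b) (h : LeftDuality a b) (n : ℕ)
    (hn : 1 ≤ n) (han : a < 1 + 1 / n) : n * Real.log 2 ≤ b * Real.log (2 * n + 1) := by
  have hn' : (0 : ℝ) < n := by exact_mod_cast hn
  have ht : (0 : ℝ) < 1 + 1 / n := by positivity
  have ha0 : 0 < a := by linarith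
  have hb0 : 0 < b := by linarith
  have key := h n hn (cross n (1 + 1 / n)) (cross n 1) (isSymmBody_cross n ht)
    (isSymmBody_cross n one_pos)
  rw [polarBody_cross n ht, polarBody_cross n one_pos, smul_cube n ha0] at key
  have h1 : 2 ^ n ≤ covNum (cube n (1 / 1)) (cube n (a * (1 / (1 + 1 / (n : ℝ))))) := by
    refine two_pow_le_covNum_cube n (by positivity) ?_
    rw [mul_one_div, div_one, div_lt_one ht]
    exact han
  have h2 : covNum (cross n (1 + 1 / n)) (cross n 1) ≤ 2 * n + 1 :=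
    covNum_cross_le n hn one_pos (by linarith [div_pos one_pos hn']) (by rw [one_mul])
  have h3 := le_log_covNum h1 Nat.one_le_two_pow
  have h4 := log_covNum_le h2 (by omega)
  push_cast at h3 h4
  rw [Real.log_pow] at h3
  have h5 : 1 / b * (n * Real.log 2) ≤ Real.log (2 * n + 1) := by
    refine le_trans ?_ (key.trans h4)
    gcongr
  rw [one_div, inv_mul_le_iff₀ hb0] at h5
  exact h5

theorem tradeoff_right {a b : ℝ} (ha : 1 ≤ a) (hb : 1 ≤ b) (h : RightDuality a b) (n : ℕ)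
    (hn : 1 ≤ n) (han : a < 1 + 1 / n) : n * Real.log 2 ≤ b * Real.log (2 * n + 1) := by
  have hn' : (0 : ℝ) < n := by exact_mod_cast hn
  have hu : (0 : ℝ) < 1 + 1 / n := by positivity
  have ha0 : 0 < a := by linarith
  have hb0 : 0 < b := by linarith
  have ht1 : 1 < (1 + 1 / (n : ℝ)) / a := by rwa [one_lt_div ha0]
  have ht : 0 < (1 + 1 / (n : ℝ)) / a := by positivity
  have key := h n hn (cube n ((1 + 1 / n) / a)) (cube n 1) (isSymmBody_cube n ht)
    (isSymmBody_cube n one_pos)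
  rw [polarBody_cube n ht, polarBody_cube n one_pos, smul_cross n (inv_pos.2 ha0)] at key
  have h1 : 2 ^ n ≤ covNum (cube n ((1 + 1 / n) / a)) (cube n 1) :=
    two_pow_le_covNum_cube n one_pos ht1
  have hs : a⁻¹ * (1 / ((1 + 1 / (n : ℝ)) / a)) = 1 / (1 + 1 / (n : ℝ)) := by
    field_simp
  rw [hs] at key
  have h2 : covNum (cross n (1 / 1)) (cross n (1 / (1 + 1 / (n : ℝ)))) ≤ 2 * n + 1 := by
    refine covNum_cross_le n hn (by positivity) ?_ ?_
    · rw [div_one, div_le_one hu]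
      linarith [div_pos one_pos hn']
    · rw [one_div_mul_cancel hu.ne', div_one]
  have h3 := le_log_covNum h1 Nat.one_le_two_pow
  have h4 := log_covNum_le h2 (by omega)
  push_cast at h3 h4
  rw [Real.log_pow] at h3
  calc n * Real.log 2 ≤ _ := h3
    _ ≤ _ := key
    _ ≤ b * Real.log (2 * n + 1) := by gcongr

theorem growth (b : ℝ) (hb : 1 ≤ b) : ∃ n : ℕ, 1 ≤ n ∧ b * Real.log (2 * n + 1) < n * Real.log 2 := by
  have hl2 : 0 < Real.log 2 := Real.log_pos one_lt_two
  obtain ⟨m, hm⟩ := exists_nat_gt (4 * b / Real.log 2)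
  have hm0 : (0 : ℝ) < m := lt_trans (by positivity) hm
  have hm1 : 1 ≤ m := by exact_mod_cast hm0
  refine ⟨m ^ 2, Nat.one_le_pow _ _ hm1, ?_⟩
  have hm1' : (1 : ℝ) ≤ m := by exact_mod_cast hm1
  have h1 : Real.log (2 * ((m ^ 2 : ℕ) : ℝ) + 1) ≤ Real.log ((2 * (m : ℝ)) ^ 2) := by
    refine Real.log_le_log (by positivity) ?_
    push_cast
    nlinarith
  have h2 : Real.log ((2 * (m : ℝ)) ^ 2) = 2 * Real.log (2 * m) := by
    rw [Real.log_pow]; norm_num
  have h3 : Real.log (2 * (m : ℝ)) ≤ 2 * m - 1 := Real.log_le_sub_one_of_pos (by positivity)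
  have h4 : Real.log (2 * ((m ^ 2 : ℕ) : ℝ) + 1) < 4 * m := by linarith
  have h5 : 4 * b < m * Real.log 2 := by rwa [div_lt_iff₀ hl2] at hm
  push_cast
  push_cast at h4
  have hb0 : 0 < b := by linarith
  calc b * Real.log (2 * (m : ℝ) ^ 2 + 1) < b * (4 * m) := by gcongr
    _ = (4 * b) * m := by ring
    _ ≤ (m * Real.log 2) * m := by gcongr
    _ = (m : ℝ) ^ 2 * Real.log 2 := by ring

/-- If either half of the duality conjecture for metric entropy holds with constants `a, b ≥ 1`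
(for all dimensions and all pairs of origin-symmetric convex bodies), then `a > 1`, and moreover
`b ≥ n log 2 / log (2 n + 1)` for every `n ≥ 1` with `a < 1 + 1 / n`. -/
theorem result (a b : ℝ) (ha : 1 ≤ a) (hb : 1 ≤ b) (h : LeftDuality a b ∨ RightDuality a b) :
    1 < a ∧ ∀ n : ℕ, 1 ≤ n → a < 1 + 1 / (n : ℝ) →
      (n : ℝ) * Real.log 2 ≤ b * Real.log (2 * (n : ℝ) + 1) := by
  have main : ∀ n : ℕ, 1 ≤ n → a < 1 + 1 / (n : ℝ) →
      (n : ℝ) * Real.log 2 ≤ b * Real.log (2 * (n : ℝ) + 1) := by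
    intro n hn han
    rcases h with h | h
    · exact tradeoff_left ha hb h n hn han
    · exact tradeoff_right ha hb h n hn han
  refine ⟨?_, main⟩
  by_contra hcon
  have ha1 : a = 1 := le_antisymm (not_lt.1 hcon) ha
  obtain ⟨n, hn, hlt⟩ := growth b hb
  have hn' : (0 : ℝ) < n := by exact_mod_cast hn
  have := main n hn (by rw [ha1]; linarith [div_pos one_pos hn'])
  linarith

end Vale.Agent.Results.P126.ScaleNecessary
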